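import Vale.Agent.P243.Rot

/-!
# P243: Bang's half-area question for cylinders with coplanar axis directions

If the axis directions of finitely many cylinders are all parallel to one plane and the cylinders
cover a convex body `K` in three-space, then the total base area is at least half of the smallest
area of an orthogonal projection of `K` to a plane. In particular this holds for every covering
whose cylinders use at most two different axis lines.
-/

namespace Vale.Agent.Results.P243.CoplanarAxes

open MeasureTheory Set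
open scoped RealInnerProductSpace
open Vale.Agent.P243

/-- In dimension three any two vectors have a common nonzero orthogonal vector. -/
theorem exists_common_normal (u1 u2 : E3) : ∃ n : E3, n ≠ 0 ∧ ⟪u1, n⟫ = 0 ∧ ⟪u2, n⟫ = 0 := by
  let S : Submodule ℝ E3 := Submodule.span ℝ {u1, u2}
  have hS : Module.finrank ℝ S ≤ 2 := by
    have h1 := finrank_span_finset_le_card (R := ℝ) ({u1, u2} : Finset E3)
    have h2 : ({u1, u2} : Finset E3).card ≤ 2 := Finset.card_le_two
    have h3 : Submodule.span ℝ ((({u1, u2} : Finset E3)) : Set E3) = S := by simp [S]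
    rw [Set.finrank, h3] at h1
    exact h1.trans h2
  have hne : Sᗮ ≠ ⊥ := by
    intro h
    have h4 := Submodule.finrank_add_finrank_orthogonal S
    rw [h, finrank_bot, finrank_euclideanSpace, Fintype.card_fin] at h4
    omega
  obtain ⟨n, hn, hn0⟩ := Submodule.exists_mem_ne_zero_of_ne_bot hne
  refine ⟨n, hn0, ?_, ?_⟩
  · exact (Submodule.mem_orthogonal S n).1 hn u1 (Submodule.subset_span (by simp))
  · exact (Submodule.mem_orthogonal S n).1 hn u2 (Submodule.subset_span (by simp))

/-- Bang's half-area inequality for all coverings by cylinders whose axis directions are parallel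
to a common plane; and for all coverings by cylinders with at most two axis directions (up to
sign). -/
theorem result (K : Set E3) (hK : Convex ℝ K) (hc : IsCompact K) (hi : (interior K).Nonempty)
    (m : ℕ) (C : Fin m → Cylinder) (hcov : K ⊆ ⋃ i, (C i).carrier) :
    ((∃ n : E3, n ≠ 0 ∧ ∀ i, ⟪(C i).u, n⟫ = 0) → Amin K / 2 ≤ ∑ i, (C i).area) ∧
    ((∃ u1 u2 : E3, ∀ i, (C i).u = u1 ∨ (C i).u = -u1 ∨ (C i).u = u2 ∨ (C i).u = -u2) →
      Amin K / 2 ≤ ∑ i, (C i).area) := by
  have h1 : (∃ n : E3, n ≠ 0 ∧ ∀ i, ⟪(C i).u, n⟫ = 0) → Amin K / 2 ≤ ∑ i, (C i).area := by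
    rintro ⟨n, hn, hcop⟩
    exact half_area hK hc hi C hcov hn hcop
  refine ⟨h1, ?_⟩
  rintro ⟨u1, u2, hu⟩
  obtain ⟨n, hn, hn1, hn2⟩ := exists_common_normal u1 u2
  refine h1 ⟨n, hn, fun i => ?_⟩
  rcases hu i with h | h | h | h
  · rw [h]; exact hn1
  · rw [h, inner_neg_left, hn1, neg_zero]
  · rw [h]; exact hn2
  · rw [h, inner_neg_left, hn2, neg_zero]

end Vale.Agent.Results.P243.CoplanarAxes
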